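import Vale.Agent.Lib.P066K.Iter

/-!
The positivity theorem for graphs without four pairwise adjacent vertices.
-/

namespace Vale.Agent.Lib.P066K

open Finset

lemma el_xx_eq_esymm (N k : ℕ) : el (xx N) k = MvPolynomial.esymm (Fin N) ZQ k := by
  have h : ∀ t : Finset (Fin N),
      ∏ i ∈ t, (Polynomial.C (xx N i) * Polynomial.X) =
        Polynomial.C (∏ i ∈ t, xx N i) * Polynomial.X ^ t.card := by
    intro t
    rw [Finset.prod_mul_distrib, Finset.prod_const, map_prod]
  simp only [el, gf]
  rw [Finset.prod_one_add, Polynomial.finsetSum_coeff]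
  simp only [h, Polynomial.coeff_C_mul_X_pow]
  rw [MvPolynomial.esymm, Finset.powersetCard_eq_filter, Finset.sum_filter]
  refine Finset.sum_congr rfl fun t _ => ?_
  by_cases h1 : t.card = k
  · simp [h1, xx]
  · rw [if_neg (Ne.symm h1), if_neg h1]

lemma eprod_eq_esymmPart {n : ℕ} (lam : n.Partition) (N : ℕ) :
    eprod lam.parts N = MvPolynomial.esymmPart (Fin N) ZQ lam := by
  have : el (xx N) = MvPolynomial.esymm (Fin N) ZQ := by
    funext k
    exact el_xx_eq_esymm N k
  simp only [eprod, this, MvPolynomial.esymmPart]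

variable {n : ℕ} (h : Fin n → Fin n)

lemma tt_zero_prev (hm : Monotone h) (hi : ∀ i, i ≤ h i) (v : ℕ) (hv : v < n)
    (h0 : tt h v = 0) : v = 0 ∨ tt h (v - 1) ≤ 1 := by
  by_cases hv0 : v = 0
  · exact Or.inl hv0
  · right
    have hv1 : v - 1 < n := by omega
    have e1 : tt h v = (h ⟨v, hv⟩ : ℕ) - v := by simp [tt, hv]
    have e2 : tt h (v - 1) = (h ⟨v - 1, hv1⟩ : ℕ) - (v - 1) := by simp [tt, hv1]
    have hle : (⟨v - 1, hv1⟩ : Fin n) ≤ ⟨v, hv⟩ := by
      show v - 1 ≤ v
      omega
    have h1 : (h ⟨v - 1, hv1⟩ : ℕ) ≤ h ⟨v, hv⟩ := hm hle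
    rw [e2]
    rw [e1] at h0
    omega

lemma YY_inv (hm : Monotone h) (hi : ∀ i, i ≤ h i) (v : ℕ) (hv : v ≤ n) :
    (∃ G ∈ Cone v, OffEq (YY h v) G) ∧ ((v = 0 ∨ tt h (v - 1) ≤ 1) → YY h v ∈ Cone1 v) := by
  induction v with
  | zero =>
    have e : YY h 0 = gen 1 0 (.M 0) := by
      funext N b c
      simp [YY, gen, eval_M, evalM_zero, eprod]
    have hm0 : gen 1 0 (.M 0) ∈ Const 0 := by
      apply AddSubmonoid.subset_closure
      exact ⟨1, 0, by simp, by simp, rfl⟩
    have h1 : YY h 0 ∈ Cone1 0 := by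
      rw [e]
      exact Const_le 0 hm0
    exact ⟨⟨_, Cone1_le 0 h1, fun _ _ _ _ => rfl⟩, fun _ => h1⟩
  | succ v ih =>
    obtain ⟨⟨G, hG, hGe⟩, hC⟩ := ih (by omega)
    by_cases h0 : tt h v = 0
    · have e : YY h (v + 1) = famZ (YY h v) := by
        simp only [YY, h0, if_true]
      have h1 : YY h v ∈ Cone1 v := hC (tt_zero_prev h hm hi v (by omega) h0)
      have h2 : YY h (v + 1) ∈ Cone1 (v + 1) := by
        rw [e]
        exact Const_le _ (famZ_mem v _ h1)
      exact ⟨⟨_, Cone1_le _ h2, fun _ _ _ _ => rfl⟩, fun _ => h2⟩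
    · by_cases h1 : tt h v = 1
      · have e : YY h (v + 1) = famD (YY h v) := by
          simp only [YY, h1, Nat.one_ne_zero, if_false, if_true]
        have h2 : YY h (v + 1) ∈ Cone1 (v + 1) := by
          rw [e, famD_congr _ _ hGe]
          exact famD_mem v G hG
        exact ⟨⟨_, Cone1_le _ h2, fun _ _ _ _ => rfl⟩, fun _ => h2⟩
      · have e : YY h (v + 1) = famA (YY h v) := by
          simp only [YY, h0, h1, if_false]
        constructor
        · rw [e, famA_congr _ _ hGe]
          exact famA_mem v G hG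
        · rintro (h2 | h2)
          · omega
          · simp only [Nat.add_sub_cancel] at h2
            omega

lemma YY_const (hm : Monotone h) (hi : ∀ i, i ≤ h i) (hn : 0 < n) : YY h n ∈ Const n := by
  obtain ⟨m, rfl⟩ : ∃ m, n = m + 1 := ⟨n - 1, by omega⟩
  have h0 : tt h m = 0 := by
    have hm' : m < m + 1 := by omega
    have e1 : tt h m = (h ⟨m, hm'⟩ : ℕ) - m := by simp [tt]
    have := (h ⟨m, hm'⟩).isLt
    rw [e1]
    omega
  have e : YY h (m + 1) = famZ (YY h m) := by
    simp only [YY, h0, if_true]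
  have h1 := (YY_inv h hm hi m (by omega)).2 (tt_zero_prev h hm hi m (by omega) h0)
  rw [e]
  exact famZ_mem m _ h1

lemma Const_extract (d : ℕ) (G : Fam) (hG : G ∈ Const d) :
    ∃ c : d.Partition → Polynomial ℕ, ∀ N (a b : Fin N),
      G N a b = ∑ lam, rho N (c lam) * eprod lam.parts N := by
  classical
  induction hG using AddSubmonoid.closure_induction with
  | mem G hG =>
    obtain ⟨c0, μ, h1, h2, rfl⟩ := hG
    let lam0 : d.Partition := ⟨μ, fun {i} hi => h1 i hi, h2⟩
    refine ⟨fun lam => if lam = lam0 then c0 else 0, ?_⟩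
    intro N a b
    rw [Finset.sum_eq_single lam0]
    · simp [gen_apply, eval_M, evalM_zero, lam0]
    · intro lam _ hne
      simp [hne]
    · intro hh; exact absurd (mem_univ _) hh
  | zero =>
    exact ⟨0, fun N a b => by simp⟩
  | add F G _ _ hF hG =>
    obtain ⟨c1, h1⟩ := hF
    obtain ⟨c2, h2⟩ := hG
    refine ⟨c1 + c2, fun N a b => ?_⟩
    have e0 : (F + G) N a b = F N a b + G N a b := rfl
    rw [e0, h1, h2, ← Finset.sum_add_distrib]
    refine Finset.sum_congr rfl fun lam _ => ?_
    rw [Pi.add_apply, map_add, add_mul]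

/-- The main theorem: for `h(i) ≤ i + 2` the elementary coefficients lie in `ℕ[q]`. -/
theorem main_k4free (hn : 0 < n) (hm : Monotone h) (hi : ∀ i, i ≤ h i)
    (h3 : ∀ i : Fin n, (h i : ℕ) ≤ i + 2) :
    ∃ c : n.Partition → Polynomial ℕ, ∀ N : ℕ,
      chromQ h N = ∑ lam : n.Partition,
        MvPolynomial.C ((c lam).map (Nat.castRingHom ℤ)) *
          MvPolynomial.esymmPart (Fin N) (Polynomial ℤ) lam := by
  obtain ⟨c, hc⟩ := Const_extract n _ (YY_const h hm hi hn)
  refine ⟨c, fun N => ?_⟩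
  by_cases hN : N = 0
  · subst hN
    have e1 : chromQ h 0 = 0 := by
      have : IsEmpty (Fin n → Fin 0) := by
        constructor
        intro f
        exact (f ⟨0, hn⟩).elim0
      simp [chromQ]
    rw [e1]
    symm
    apply Finset.sum_eq_zero
    intro lam _
    have hne : lam.parts ≠ 0 := by
      intro h0
      have := lam.parts_sum
      rw [h0] at this
      simp at this
      omega
    obtain ⟨p, hp⟩ := Multiset.exists_mem_of_ne_zero hne
    have hp0 := lam.parts_pos hp
    have hz : MvPolynomial.esymm (Fin 0) (Polynomial ℤ) p = 0 := by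
      rw [MvPolynomial.esymm]
      apply Finset.sum_eq_zero
      intro t ht
      have := (Finset.mem_powersetCard.mp ht).2
      have h4 : t = ∅ := by
        ext a
        exact a.elim0
      rw [h4] at this
      simp at this
      omega
    have : MvPolynomial.esymmPart (Fin 0) (Polynomial ℤ) lam = 0 := by
      simp only [MvPolynomial.esymmPart]
      apply Multiset.prod_eq_zero
      rw [Multiset.mem_map]
      exact ⟨p, hp, hz⟩
    rw [this, mul_zero]
  · have b : Fin N := ⟨0, by omega⟩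
    rw [← YY_eq_chrom h hi h3 N b b, hc N b b]
    refine Finset.sum_congr rfl fun lam _ => ?_
    rw [eprod_eq_esymmPart, rho_apply]

end Vale.Agent.Lib.P066K
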