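import Vale.Agent.Lib.P066K.Recur

/-!
The positive cones of families of states, uniform in the number of colours.
-/

namespace Vale.Agent.Lib.P066K

open Finset

/-- The coefficient ring `ℤ[q]`. -/
abbrev ZQ := Polynomial ℤ

/-- The ring of polynomials in `N` letters over `ℤ[q]`. -/
abbrev RN (N : ℕ) := MvPolynomial (Fin N) ZQ

/-- The parameter `q`. -/
noncomputable def qq (N : ℕ) : RN N := MvPolynomial.C Polynomial.X

/-- The letters. -/
noncomputable def xx (N : ℕ) : Fin N → RN N := fun i => MvPolynomial.X i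

lemma qq_sub_one_ne (N : ℕ) : qq N - 1 ≠ 0 := by
  intro h
  have h1 : (MvPolynomial.C (Polynomial.X - 1 : ZQ) : RN N) = 0 := by
    rw [map_sub, map_one]; exact h
  have h2 : (Polynomial.X - 1 : ZQ) = 0 := by
    have := (MvPolynomial.C_injective (Fin N) ZQ)
    exact this (by rw [h1]; simp)
  have h3 := congrArg (fun p : ZQ => p.eval 1) h2
  have h4 := congrArg (fun p : ZQ => p.eval 0) h2
  simp at h4

/-- The map from `ℕ[q]`. -/
noncomputable def rho (N : ℕ) : Polynomial ℕ →+* RN N :=
  (MvPolynomial.C).comp (Polynomial.mapRingHom (Nat.castRingHom ℤ))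

lemma rho_apply (N : ℕ) (c : Polynomial ℕ) :
    rho N c = MvPolynomial.C (c.map (Nat.castRingHom ℤ)) := rfl

lemma rho_X (N : ℕ) : rho N Polynomial.X = qq N := by
  simp [rho, qq]

/-- The index of a basic state. -/
inductive Key
  | M (s : ℕ)
  | O (l s : ℕ)
  | S (l s : ℕ)

/-- The degree of a basic state. -/
def Key.deg : Key → ℕ
  | .M s => s
  | .O _ s => s
  | .S _ s => s

/-- Which basic states are used. -/
def Key.Valid : Key → Prop
  | .M _ => True
  | .O l s => 2 * l + 1 ≤ s
  | .S l s => 1 ≤ l ∧ 2 * l ≤ s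

/-- The states of one open vertex. -/
def keyC (j : ℕ) : Key := if j = 0 then .M 0 else .O 0 j

lemma keyC_valid (j : ℕ) : (keyC j).Valid := by
  unfold keyC
  split_ifs with h
  · trivial
  · show 2 * 0 + 1 ≤ j
    omega

lemma keyC_deg (j : ℕ) : (keyC j).deg = j := by
  unfold keyC
  split_ifs with h
  · simp [Key.deg, h]
  · rfl

/-- Families of states, one for each number of colours. -/
abbrev Fam := ∀ N : ℕ, Fin N → Fin N → RN N

/-- Evaluation of a basic state. -/
noncomputable def Key.eval (K : Key) (N : ℕ) : Fin N → Fin N → RN N :=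
  match K with
  | .M s => evalM (qq N) (xx N) s
  | .O l s => evalO (qq N) (xx N) l s
  | .S l s => evalS (qq N) (xx N) l s

lemma eval_M (s N : ℕ) : (Key.M s).eval N = evalM (qq N) (xx N) s := rfl
lemma eval_O (l s N : ℕ) : (Key.O l s).eval N = evalO (qq N) (xx N) l s := rfl
lemma eval_S (l s N : ℕ) : (Key.S l s).eval N = evalS (qq N) (xx N) l s := rfl

lemma keyC_eval (j N : ℕ) (a b : Fin N) : (keyC j).eval N a b = B (qq N) (xx N) j a := by
  unfold keyC
  split_ifs with h
  · subst h
    simp only [Key.eval, evalM_zero, B_zero]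
  · simp only [Key.eval]
    exact evalO_zero _ _ _ _ _

/-- The product of the elementary functions of a multiset of indices. -/
noncomputable def eprod (μ : Multiset ℕ) (N : ℕ) : RN N := (μ.map (el (xx N))).prod

lemma eprod_cons (p : ℕ) (μ : Multiset ℕ) (N : ℕ) :
    eprod (p ::ₘ μ) N = el (xx N) p * eprod μ N := by
  simp [eprod]

/-- The generators of the cones. -/
noncomputable def gen (c : Polynomial ℕ) (μ : Multiset ℕ) (K : Key) : Fam :=
  fun N a b => rho N c * eprod μ N * K.eval N a b

/-- The cone of all positive states of degree `d`. -/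
noncomputable def Cone (d : ℕ) : AddSubmonoid Fam :=
  AddSubmonoid.closure {G | ∃ c μ K, Key.Valid K ∧ (∀ p ∈ μ, 1 ≤ p) ∧
    Multiset.sum μ + Key.deg K = d ∧ G = gen c μ K}

/-- The cone of states with only the first vertex open. -/
noncomputable def Cone1 (d : ℕ) : AddSubmonoid Fam :=
  AddSubmonoid.closure {G | ∃ c μ j, (∀ p ∈ μ, 1 ≤ p) ∧
    Multiset.sum μ + j = d ∧ G = gen c μ (keyC j)}

/-- The cone of constant states. -/
noncomputable def Const (d : ℕ) : AddSubmonoid Fam :=
  AddSubmonoid.closure {G | ∃ c μ, (∀ p ∈ μ, 1 ≤ p) ∧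
    Multiset.sum μ = d ∧ G = gen c μ (.M 0)}

lemma Cone1_le (d : ℕ) : Cone1 d ≤ Cone d := by
  apply AddSubmonoid.closure_le.mpr
  rintro G ⟨c, μ, j, h1, h2, rfl⟩
  apply AddSubmonoid.subset_closure
  exact ⟨c, μ, keyC j, keyC_valid j, h1, by rw [keyC_deg]; exact h2, rfl⟩

lemma Const_le (d : ℕ) : Const d ≤ Cone1 d := by
  apply AddSubmonoid.closure_le.mpr
  rintro G ⟨c, μ, h1, h2, rfl⟩
  apply AddSubmonoid.subset_closure
  exact ⟨c, μ, 0, h1, by simpa using h2, by simp [keyC]⟩

/-- The family version of `stepA`. -/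
noncomputable def famA (F : Fam) : Fam := fun N b c => stepA (qq N) (xx N) (F N) b c

/-- The family version of `stepD`. -/
noncomputable def famD (F : Fam) : Fam := fun N b c => stepD (qq N) (xx N) (F N) b c

/-- The family version of `stepZ`. -/
noncomputable def famZ (F : Fam) : Fam := fun N b c => stepZ (xx N) (F N) b c

lemma stepA_add {R : Type*} [CommRing R] {N : ℕ} (q : R) (x : Fin N → R)
    (F G : Fin N → Fin N → R) (b c : Fin N) :
    stepA q x (F + G) b c = stepA q x F b c + stepA q x G b c := by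
  simp only [stepA, ← Finset.sum_add_distrib]
  refine Finset.sum_congr rfl fun a _ => ?_
  split_ifs
  · simp only [Pi.add_apply]; ring
  · simp

lemma stepD_add {R : Type*} [CommRing R] {N : ℕ} (q : R) (x : Fin N → R)
    (F G : Fin N → Fin N → R) (b c : Fin N) :
    stepD q x (F + G) b c = stepD q x F b c + stepD q x G b c := by
  simp only [stepD, ← Finset.sum_add_distrib]
  refine Finset.sum_congr rfl fun a _ => ?_
  split_ifs
  · simp only [Pi.add_apply]; ring
  · simp

lemma stepZ_add {R : Type*} [CommRing R] {N : ℕ} (x : Fin N → R)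
    (F G : Fin N → Fin N → R) (b c : Fin N) :
    stepZ x (F + G) b c = stepZ x F b c + stepZ x G b c := by
  simp only [stepZ, ← Finset.sum_add_distrib]
  refine Finset.sum_congr rfl fun a _ => ?_
  simp only [Pi.add_apply]; ring

lemma stepA_const {R : Type*} [CommRing R] {N : ℕ} (q : R) (x : Fin N → R) (r : R)
    (F : Fin N → Fin N → R) (b c : Fin N) :
    stepA q x (fun a b => r * F a b) b c = r * stepA q x F b c := by
  simp only [stepA, Finset.mul_sum]
  refine Finset.sum_congr rfl fun a _ => ?_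
  split_ifs
  · ring
  · simp

lemma stepD_const {R : Type*} [CommRing R] {N : ℕ} (q : R) (x : Fin N → R) (r : R)
    (F : Fin N → Fin N → R) (b c : Fin N) :
    stepD q x (fun a b => r * F a b) b c = r * stepD q x F b c := by
  simp only [stepD, Finset.mul_sum]
  refine Finset.sum_congr rfl fun a _ => ?_
  split_ifs
  · ring
  · simp

lemma stepZ_const {R : Type*} [CommRing R] {N : ℕ} (x : Fin N → R) (r : R)
    (F : Fin N → Fin N → R) (b c : Fin N) :
    stepZ x (fun a b => r * F a b) b c = r * stepZ x F b c := by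
  simp only [stepZ, Finset.mul_sum]
  refine Finset.sum_congr rfl fun a _ => ?_
  ring

lemma map_qn_rho (N k : ℕ) : rho N (qn Polynomial.X k) = qn (qq N) k := by
  rw [map_qn, rho_X]

/-- Off the diagonal equality of families. -/
def OffEq (F G : Fam) : Prop := ∀ N (b c : Fin N), b ≠ c → F N b c = G N b c

lemma famA_congr (F G : Fam) (h : OffEq F G) : famA F = famA G := by
  funext N b c
  simp only [famA, stepA]
  refine Finset.sum_congr rfl fun a _ => ?_
  split_ifs with h1
  · rw [h N a b h1.1]
  · rfl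

lemma famD_congr (F G : Fam) (h : OffEq F G) : famD F = famD G := by
  funext N b c
  simp only [famD, stepD]
  refine Finset.sum_congr rfl fun a _ => ?_
  split_ifs with h1
  · rw [h N a b h1]
  · rfl

lemma famA_gen (c : Polynomial ℕ) (μ : Multiset ℕ) (K : Key) (N : ℕ) (b c' : Fin N) :
    famA (gen c μ K) N b c' = rho N c * eprod μ N * stepA (qq N) (xx N) (K.eval N) b c' :=
  stepA_const (qq N) (xx N) (rho N c * eprod μ N) (K.eval N) b c'

lemma famD_gen (c : Polynomial ℕ) (μ : Multiset ℕ) (K : Key) (N : ℕ) (b c' : Fin N) :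
    famD (gen c μ K) N b c' = rho N c * eprod μ N * stepD (qq N) (xx N) (K.eval N) b c' :=
  stepD_const (qq N) (xx N) (rho N c * eprod μ N) (K.eval N) b c'

lemma famZ_gen (c : Polynomial ℕ) (μ : Multiset ℕ) (K : Key) (N : ℕ) (b c' : Fin N) :
    famZ (gen c μ K) N b c' = rho N c * eprod μ N * stepZ (xx N) (K.eval N) b c' :=
  stepZ_const (xx N) (rho N c * eprod μ N) (K.eval N) b c'

lemma gen_apply (c : Polynomial ℕ) (μ : Multiset ℕ) (K : Key) (N : ℕ) (a b : Fin N) :
    gen c μ K N a b = rho N c * eprod μ N * K.eval N a b := rfl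

/-- The `stepA` recursion on a generator, with a fixed key. -/
lemma famA_gen_mem (d : ℕ) (c : Polynomial ℕ) (μ : Multiset ℕ) (K : Key) (hK : K.Valid)
    (hμ : ∀ p ∈ μ, 1 ≤ p) (hd : Multiset.sum μ + K.deg = d) :
    ∃ G' ∈ Cone (d + 1), OffEq (famA (gen c μ K)) G' := by
  have hC : ∀ (c' : Polynomial ℕ) (j : ℕ) (p : ℕ), 1 ≤ p → p + j = K.deg + 1 →
      gen c' (p ::ₘ μ) (keyC j) ∈ Cone (d + 1) := by
    intro c' j p hp hpj
    apply AddSubmonoid.subset_closure
    refine ⟨c', p ::ₘ μ, keyC j, keyC_valid j, ?_, ?_, rfl⟩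
    · intro r hr
      rcases Multiset.mem_cons.mp hr with h | h
      · omega
      · exact hμ r h
    · rw [keyC_deg, Multiset.sum_cons]; omega
  have hC0 : ∀ (c' : Polynomial ℕ), gen c' μ (keyC (K.deg + 1)) ∈ Cone (d + 1) := by
    intro c'
    apply AddSubmonoid.subset_closure
    exact ⟨c', μ, keyC (K.deg + 1), keyC_valid _, hμ, by rw [keyC_deg]; omega, rfl⟩
  have hT : ∀ K' : Key, K'.Valid → K'.deg = K.deg + 1 → gen c μ K' ∈ Cone (d + 1) := by
    intro K' h1 h2
    apply AddSubmonoid.subset_closure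
    exact ⟨c, μ, K', h1, hμ, by omega, rfl⟩
  cases K with
  | M s =>
    refine ⟨gen c μ (.M (s + 1)) + gen (c * (Polynomial.X * qn Polynomial.X s)) μ (keyC (s + 1)),
      add_mem (hT _ trivial rfl) (hC0 _), ?_⟩
    intro N b c' _
    have h := stepA_M (qq N) (qq_sub_one_ne N) (xx N) s b c'
    simp only [Pi.add_apply, famA_gen, gen_apply, eval_M, keyC_eval, map_mul, rho_X, map_qn_rho]
    rw [h]
    ring
  | O l s =>
    refine ⟨gen c μ (.S (l + 1) (s + 1)) +
        gen (c * (Polynomial.X * qn Polynomial.X l * qn Polynomial.X (l + 1))) μ (keyC (s + 1)) +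
        ∑ j ∈ range (s + 1), gen (c * cOf Polynomial.X l s j) ((s - j + 1) ::ₘ μ) (keyC j), ?_, ?_⟩
    · refine add_mem (add_mem (hT _ ⟨by omega, by have : 2 * l + 1 ≤ s := hK; omega⟩ rfl)
        (hC0 _)) (sum_mem fun j hj => hC _ _ _ (by omega) ?_)
      have := Finset.mem_range.mp hj
      simp only [Key.deg]; omega
    · intro N b c' hbc
      have h := stepA_O (qq N) (qq_sub_one_ne N) (xx N) l s hK b c' hbc
      simp only [Pi.add_apply, Finset.sum_apply, famA_gen, gen_apply, eval_O, eval_S, keyC_eval,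
        map_mul, rho_X, map_qn_rho, eprod_cons, map_cOf]
      rw [h, mul_add, mul_add, Finset.mul_sum]
      refine congr_arg₂ (· + ·) ?_ (Finset.sum_congr rfl fun j _ => ?_)
      · ring
      · ring
  | S l s =>
    refine ⟨gen c μ (.O l (s + 1)) +
        gen (c * (Polynomial.X * qn Polynomial.X (l - 1) * qn Polynomial.X (l + 1))) μ
          (keyC (s + 1)) +
        ∑ j ∈ range (s + 1), gen (c * cSf Polynomial.X l s j) ((s - j + 1) ::ₘ μ) (keyC j), ?_, ?_⟩
    · have hK' : 1 ≤ l ∧ 2 * l ≤ s := hK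
      refine add_mem (add_mem (hT _ (by show 2 * l + 1 ≤ s + 1; omega) rfl)
        (hC0 _)) (sum_mem fun j hj => hC _ _ _ (by omega) ?_)
      have := Finset.mem_range.mp hj
      simp only [Key.deg]; omega
    · intro N b c' hbc
      have hK' : 1 ≤ l ∧ 2 * l ≤ s := hK
      have h := stepA_S (qq N) (qq_sub_one_ne N) (xx N) l s hK'.1 hK'.2 b c' hbc
      simp only [Pi.add_apply, Finset.sum_apply, famA_gen, gen_apply, eval_O, eval_S, keyC_eval,
        map_mul, rho_X, map_qn_rho, eprod_cons, map_cSf]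
      rw [h, mul_add, mul_add, Finset.mul_sum]
      refine congr_arg₂ (· + ·) ?_ (Finset.sum_congr rfl fun j _ => ?_)
      · ring
      · ring

/-- `famA` preserves the cone, off the diagonal. -/
lemma famA_mem (d : ℕ) (G : Fam) (hG : G ∈ Cone d) :
    ∃ G' ∈ Cone (d + 1), OffEq (famA G) G' := by
  induction hG using AddSubmonoid.closure_induction with
  | mem G hG =>
    obtain ⟨c, μ, K, h1, h2, h3, rfl⟩ := hG
    exact famA_gen_mem d c μ K h1 h2 h3
  | zero =>
    refine ⟨0, zero_mem _, ?_⟩
    intro N b c _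
    simp [famA, stepA]
  | add F G _ _ hF hG =>
    obtain ⟨F', h1, h2⟩ := hF
    obtain ⟨G', h3, h4⟩ := hG
    refine ⟨F' + G', add_mem h1 h3, ?_⟩
    intro N b c hbc
    have : famA (F + G) N b c = famA F N b c + famA G N b c := stepA_add _ _ _ _ b c
    rw [this, h2 N b c hbc, h4 N b c hbc]
    rfl

/-- The `stepD` recursion on a generator. -/
lemma famD_gen_mem (d : ℕ) (c : Polynomial ℕ) (μ : Multiset ℕ) (K : Key) (hK : K.Valid)
    (hμ : ∀ p ∈ μ, 1 ≤ p) (hd : Multiset.sum μ + K.deg = d) :
    famD (gen c μ K) ∈ Cone1 (d + 1) := by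
  have hC : ∀ (c' : Polynomial ℕ) (j : ℕ) (p : ℕ), 1 ≤ p → p + j = K.deg + 1 →
      gen c' (p ::ₘ μ) (keyC j) ∈ Cone1 (d + 1) := by
    intro c' j p hp hpj
    apply AddSubmonoid.subset_closure
    refine ⟨c', p ::ₘ μ, j, ?_, ?_, rfl⟩
    · intro r hr
      rcases Multiset.mem_cons.mp hr with h | h
      · omega
      · exact hμ r h
    · rw [Multiset.sum_cons]; omega
  have hC0 : ∀ (c' : Polynomial ℕ), gen c' μ (keyC (K.deg + 1)) ∈ Cone1 (d + 1) := by
    intro c'
    apply AddSubmonoid.subset_closure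
    exact ⟨c', μ, K.deg + 1, hμ, by omega, rfl⟩
  cases K with
  | M s =>
    have e : famD (gen c μ (.M s)) = gen (c * qn Polynomial.X (s + 1)) μ (keyC (s + 1)) := by
      funext N b c'
      have h := stepD_M (qq N) (qq_sub_one_ne N) (xx N) s b c'
      simp only [famD_gen, gen_apply, eval_M, keyC_eval, map_mul, map_qn_rho]
      rw [h]
      ring
    rw [e]
    exact hC0 _
  | O l s =>
    have hK' : 2 * l + 1 ≤ s := hK
    have e : famD (gen c μ (.O l s)) = gen (c * qn Polynomial.X (l + 1) ^ 2) μ (keyC (s + 1)) +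
        ∑ j ∈ range (s + 1), gen (c * dOf Polynomial.X l s j) ((s - j + 1) ::ₘ μ) (keyC j) := by
      funext N b c'
      have h := stepD_O (qq N) (qq_sub_one_ne N) (xx N) l s hK' b c'
      simp only [Pi.add_apply, Finset.sum_apply, famD_gen, gen_apply, eval_O, keyC_eval,
        map_mul, map_pow, rho_X, map_qn_rho, eprod_cons, map_dOf]
      rw [h, mul_add, Finset.mul_sum]
      refine congr_arg₂ (· + ·) ?_ (Finset.sum_congr rfl fun j _ => ?_)
      · ring
      · ring
    rw [e]
    refine add_mem (hC0 _) (sum_mem fun j hj => hC _ _ _ (by omega) ?_)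
    have := Finset.mem_range.mp hj
    simp only [Key.deg]; omega
  | S l s =>
    have hK' : 1 ≤ l ∧ 2 * l ≤ s := hK
    have e : famD (gen c μ (.S l s)) =
        gen (c * (qn Polynomial.X l * qn Polynomial.X (l + 1))) μ (keyC (s + 1)) +
        ∑ j ∈ range (s + 1), gen (c * dSf Polynomial.X l s j) ((s - j + 1) ::ₘ μ) (keyC j) := by
      funext N b c'
      have h := stepD_S (qq N) (qq_sub_one_ne N) (xx N) l s hK'.2 b c'
      simp only [Pi.add_apply, Finset.sum_apply, famD_gen, gen_apply, eval_S, keyC_eval,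
        map_mul, rho_X, map_qn_rho, eprod_cons, map_dSf]
      rw [h, mul_add, Finset.mul_sum]
      refine congr_arg₂ (· + ·) ?_ (Finset.sum_congr rfl fun j _ => ?_)
      · ring
      · ring
    rw [e]
    refine add_mem (hC0 _) (sum_mem fun j hj => hC _ _ _ (by omega) ?_)
    have := Finset.mem_range.mp hj
    simp only [Key.deg]; omega

/-- `famD` maps the cone to the cone of one open vertex. -/
lemma famD_mem (d : ℕ) (G : Fam) (hG : G ∈ Cone d) : famD G ∈ Cone1 (d + 1) := by
  induction hG using AddSubmonoid.closure_induction with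
  | mem G hG =>
    obtain ⟨c, μ, K, h1, h2, h3, rfl⟩ := hG
    exact famD_gen_mem d c μ K h1 h2 h3
  | zero =>
    have : famD 0 = 0 := by
      funext N b c
      simp [famD, stepD]
    rw [this]
    exact zero_mem _
  | add F G _ _ hF hG =>
    have : famD (F + G) = famD F + famD G := by
      funext N b c
      exact stepD_add _ _ _ _ b c
    rw [this]
    exact add_mem hF hG

/-- `famZ` maps the cone of one open vertex to the constants. -/
lemma famZ_mem (d : ℕ) (G : Fam) (hG : G ∈ Cone1 d) : famZ G ∈ Const (d + 1) := by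
  induction hG using AddSubmonoid.closure_induction with
  | mem G hG =>
    obtain ⟨c, μ, j, h1, h2, rfl⟩ := hG
    have e : famZ (gen c μ (keyC j)) = gen (c * qn Polynomial.X (j + 1)) ((j + 1) ::ₘ μ) (.M 0) := by
      funext N b c'
      have h := stepZ_C (qq N) (qq_sub_one_ne N) (xx N) j b c'
      have e2 : (keyC j).eval N = fun a _ => B (qq N) (xx N) j a := by
        funext a b'
        exact keyC_eval j N a b'
      rw [famZ_gen, e2, h, gen_apply, eval_M, evalM_zero, map_mul, map_qn_rho, eprod_cons]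
      ring
    rw [e]
    apply AddSubmonoid.subset_closure
    refine ⟨_, _, ?_, ?_, rfl⟩
    · intro r hr
      rcases Multiset.mem_cons.mp hr with h | h
      · omega
      · exact h1 r h
    · rw [Multiset.sum_cons]; omega
  | zero =>
    have : famZ 0 = 0 := by
      funext N b c
      simp [famZ, stepZ]
    rw [this]
    exact zero_mem _
  | add F G _ _ hF hG =>
    have : famZ (F + G) = famZ F + famZ G := by
      funext N b c
      exact stepZ_add _ _ _ b c
    rw [this]
    exact add_mem hF hG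

end Vale.Agent.Lib.P066K
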