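import Vale.Agent.Lib.P066K.Master

/-!
The two families of chamber states and the function `M`, with their recursions.
-/

namespace Vale.Agent.Lib.P066K

open Finset

section semiring

variable {S : Type*} [CommSemiring S]

/-- Right part of the lower coefficient `c` for the odd family. -/
def rO (q : S) (l i : ℕ) : S :=
  if i = 0 then qn q l else q ^ (l + 1) * qn q (i - 1) + q ^ i * qn q (l + 1 - i)

/-- Right part of the lower coefficient `c` for the even family. -/
def rS (q : S) (l i : ℕ) : S :=
  if i = 0 then qn q (l - 1) else q ^ l * qn q (i - 1) + q ^ i * qn q (l - i)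

/-- Lower coefficient `c` of the odd family. -/
def cOf (q : S) (l s j : ℕ) : S :=
  q ^ (l + 2) * qn q (l + 1 - j) * qn q (s - l - 1) + q ^ 2 * qn q (l - (s - j)) * rO q l (s - j)

/-- Lower coefficient `d` of the odd family. -/
def dOf (q : S) (l s j : ℕ) : S :=
  q ^ (l + 1) * qn q (l + 1 - j) * qn q (s - l) +
    q * qn q (l - (s - j)) * (q ^ (l + 1) * qn q (s - j) + q ^ (s - j) * qn q (l + 1 - (s - j)))

/-- Lower coefficient `c` of the even family. -/
def cSf (q : S) (l s j : ℕ) : S :=
  q ^ (l + 2) * qn q (l - j) * qn q (s - l - 1) + q ^ 2 * qn q (l - (s - j)) * rS q l (s - j)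

/-- Lower coefficient `d` of the even family. -/
def dSf (q : S) (l s j : ℕ) : S :=
  q ^ (l + 1) * qn q (l - j) * qn q (s - l) +
    q * qn q (l - (s - j)) * (q ^ l * qn q (s - j) + q ^ (s - j) * qn q (l - (s - j)))

variable {T : Type*} [CommSemiring T] (f : S →+* T) (q : S) (l s j : ℕ)

lemma map_rO : f (rO q l s) = rO (f q) l s := by
  unfold rO
  split_ifs <;> simp [map_qn]

lemma map_rS : f (rS q l s) = rS (f q) l s := by
  unfold rS
  split_ifs <;> simp [map_qn]

lemma map_cOf : f (cOf q l s j) = cOf (f q) l s j := by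
  simp [cOf, map_qn, map_rO]

lemma map_dOf : f (dOf q l s j) = dOf (f q) l s j := by
  simp [dOf, map_qn]

lemma map_cSf : f (cSf q l s j) = cSf (f q) l s j := by
  simp [cSf, map_qn, map_rS]

lemma map_dSf : f (dSf q l s j) = dSf (f q) l s j := by
  simp [dSf, map_qn]

end semiring

variable {R : Type*} [CommRing R] {N : ℕ}

lemma qn_add (q : R) (a b : ℕ) : qn q (a + b) = qn q a + q ^ a * qn q b := by
  induction b with
  | zero => simp
  | succ b ih =>
    rw [← add_assoc, qn_succ, qn_succ, ih]
    ring

/-- `β` of the odd family. -/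
def betaO (q : R) (l s j : ℕ) : R := q ^ j * qn q (l + 1 - j) + q ^ (l + 1) * qn q (l - (s - j))

/-- `τ` of the odd family. -/
def tauO (q : R) (l s j : ℕ) : R :=
  q ^ j * qn q (l - j) * qn q (l + 1 - j) -
    q ^ (s - j) * qn q (l - (s - j)) * qn q (l + 1 - (s - j))

/-- `α` of the odd family. -/
def alphaO (q : R) (l s j : ℕ) : R := q ^ l * qn q (l + 1 - j) + q ^ (s - j) * qn q (l - (s - j))

/-- `β` of the even family. -/
def betaS (q : R) (l s j : ℕ) : R := q ^ j * qn q (l - j) + q ^ l * qn q (l - (s - j))

/-- `τ` of the even family. -/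
def tauS (q : R) (l s j : ℕ) : R :=
  q ^ j * qn q (l - j) ^ 2 - q ^ (s - j) * qn q (l - (s - j)) ^ 2

/-- `α` of the even family. -/
def alphaS (q : R) (l s j : ℕ) : R := q ^ l * qn q (l - j) + q ^ (s - j) * qn q (l - (s - j))

/-- A basic identity used in the pairing: both factors vanish or cancel. -/
lemma pairO (q : R) (l i : ℕ) :
    q ^ (i + 1) * qn q (l - i) ^ 2 +
      qn q (l - i) * (q ^ (l + 1) - q ^ (i + 1) * qn q (l + 1 - i)) = 0 := by
  by_cases h : i < l
  · have e : l + 1 - i = (l - i) + 1 := by omega
    have e2 : l + 1 = (i + 1) + (l - i) := by omega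
    rw [e, qn_succ]
    have : q ^ (l + 1) = q ^ (i + 1) * q ^ (l - i) := by
      rw [← pow_add, ← e2]
    rw [this]; ring
  · have e : l - i = 0 := by omega
    simp [e]

lemma pairS (q : R) (l i : ℕ) :
    q ^ (i + 1) * (qn q (l - (i + 1)) * qn q (l - i)) +
      qn q (l - i) * (q ^ l - q ^ (i + 1) * qn q (l - i)) = 0 := by
  by_cases h : i < l
  · have e : l - i = (l - (i + 1)) + 1 := by omega
    have e2 : l = (i + 1) + (l - (i + 1)) := by omega
    rw [e, qn_succ]
    have : q ^ l = q ^ (i + 1) * q ^ (l - (i + 1)) := by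
      rw [← pow_add, ← e2]
    rw [this]; ring
  · have e : l - i = 0 := by omega
    simp [e]

lemma leftO (q : R) (l j : ℕ) :
    q ^ j * qn q (l + 1 - j) + q * (q ^ j * qn q (l - j) * qn q (l + 1 - j)) =
      q ^ j * qn q (l + 1 - j) ^ 2 := by
  by_cases h : j ≤ l
  · have e : l + 1 - j = (l - j) + 1 := by omega
    rw [e, qn_succ']
    ring
  · have e : l + 1 - j = 0 := by omega
    simp [e]

lemma leftS (q : R) (l j : ℕ) :
    q ^ j * qn q (l - j) + q * (q ^ j * qn q (l - j) ^ 2) =
      q ^ j * (qn q (l - j) * qn q (l + 1 - j)) := by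
  by_cases h : j ≤ l
  · have e : l + 1 - j = (l - j) + 1 := by omega
    rw [e, qn_succ']
    ring
  · have e : l - j = 0 := by omega
    simp [e]

/-- Decomposition of `β + q τ` for the odd family. -/
lemma gamO_eq (q : R) (l s j : ℕ) :
    betaO q l s j + q * tauO q l s j =
      q ^ j * qn q (l + 1 - j) ^ 2 +
        qn q (l - (s - j)) * (q ^ (l + 1) - q ^ (s - j + 1) * qn q (l + 1 - (s - j))) := by
  have h := leftO q l j
  simp only [betaO, tauO]
  linear_combination h

/-- Decomposition of `β + q τ` for the even family. -/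
lemma gamS_eq (q : R) (l s j : ℕ) :
    betaS q l s j + q * tauS q l s j =
      q ^ j * (qn q (l - j) * qn q (l + 1 - j)) +
        qn q (l - (s - j)) * (q ^ l - q ^ (s - j + 1) * qn q (l - (s - j))) := by
  have h := leftS q l j
  simp only [betaS, tauS]
  linear_combination h

lemma isChamberO (q : R) (l s : ℕ) : IsChamber q s (betaO q l s) (tauO q l s) := by
  constructor
  · intro j hj
    simp only [tauO, Nat.sub_sub_self hj]
    ring
  · intro j h1 h2
    rw [gamO_eq, gamO_eq]
    have e1 : s - (s + 1 - j) = j - 1 := by omega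
    rw [e1]
    have p1 := pairO q l (j - 1)
    have p2 := pairO q l (s - j)
    have e3 : j - 1 + 1 = j := by omega
    have e4 : s + 1 - j = s - j + 1 := by omega
    have e5 : l - (j - 1) = l + 1 - j := by omega
    have e6 : l + 1 - (s - j + 1) = l - (s - j) := by omega
    rw [e3, e5] at p1
    rw [e3, e5, e4, e6]
    linear_combination p1 + p2

lemma isChamberS (q : R) (l s : ℕ) : IsChamber q s (betaS q l s) (tauS q l s) := by
  constructor
  · intro j hj
    simp only [tauS, Nat.sub_sub_self hj]
    ring
  · intro j h1 h2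
    rw [gamS_eq, gamS_eq]
    have e1 : s - (s + 1 - j) = j - 1 := by omega
    rw [e1]
    have p1 := pairS q l (j - 1)
    have p2 := pairS q l (s - j)
    have e3 : j - 1 + 1 = j := by omega
    have e4 : s + 1 - j = s - j + 1 := by omega
    have e5 : l - (j - 1) = l + 1 - j := by omega
    have e6 : l + 1 - (s - j + 1) = l - (s - j) := by omega
    rw [e3, e5] at p1
    rw [e3, e5, e4, e6]
    linear_combination p1 + p2

/-- `β + (q-1) τ = α` for the odd family. -/
lemma alphaO_eq (q : R) (l s j : ℕ) :
    betaO q l s j + (q - 1) * tauO q l s j = alphaO q l s j := by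
  have h1 : q ^ j * qn q (l + 1 - j) + (q - 1) * (q ^ j * qn q (l - j) * qn q (l + 1 - j)) =
      q ^ l * qn q (l + 1 - j) := by
    by_cases h : j ≤ l
    · have e : q ^ l = q ^ j * q ^ (l - j) := by rw [← pow_add]; congr 1; omega
      have m := mul_qn q (l - j)
      rw [e]
      linear_combination q ^ j * qn q (l + 1 - j) * m
    · have e : l + 1 - j = 0 := by omega
      simp [e]
  have h2 : q ^ (l + 1) * qn q (l - (s - j)) -
      (q - 1) * (q ^ (s - j) * qn q (l - (s - j)) * qn q (l + 1 - (s - j))) =
      q ^ (s - j) * qn q (l - (s - j)) := by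
    by_cases h : s - j ≤ l
    · have e : q ^ (l + 1) = q ^ (s - j) * q ^ (l + 1 - (s - j)) := by
        rw [← pow_add]; congr 1; omega
      have m := mul_qn q (l + 1 - (s - j))
      rw [e]
      linear_combination (-(q ^ (s - j) * qn q (l - (s - j)))) * m
    · have e : l - (s - j) = 0 := by omega
      simp [e]
  simp only [betaO, tauO, alphaO]
  linear_combination h1 + h2

/-- `β + (q-1) τ = α` for the even family. -/
lemma alphaS_eq (q : R) (l s j : ℕ) :
    betaS q l s j + (q - 1) * tauS q l s j = alphaS q l s j := by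
  have h1 : q ^ j * qn q (l - j) + (q - 1) * (q ^ j * qn q (l - j) ^ 2) =
      q ^ l * qn q (l - j) := by
    by_cases h : j ≤ l
    · have e : q ^ l = q ^ j * q ^ (l - j) := by rw [← pow_add]; congr 1; omega
      have m := mul_qn q (l - j)
      rw [e]
      linear_combination q ^ j * qn q (l - j) * m
    · have e : l - j = 0 := by omega
      simp [e]
  have h2 : q ^ l * qn q (l - (s - j)) -
      (q - 1) * (q ^ (s - j) * qn q (l - (s - j)) ^ 2) =
      q ^ (s - j) * qn q (l - (s - j)) := by
    by_cases h : s - j ≤ l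
    · have e : q ^ l = q ^ (s - j) * q ^ (l - (s - j)) := by
        rw [← pow_add]; congr 1; omega
      have m := mul_qn q (l - (s - j))
      rw [e]
      linear_combination (-(q ^ (s - j) * qn q (l - (s - j)))) * m
    · have e : l - (s - j) = 0 := by omega
      simp [e]
  simp only [betaS, tauS, alphaS]
  linear_combination h1 + h2

/-- The lower coefficient `c` of the odd family is the manifestly positive expression. -/
lemma cf_O (q : R) (l s j : ℕ) (hs : 2 * l + 1 ≤ s) (hj : j ≤ s) :
    cf q (s - j) (betaO q l s j) (tauO q l s j) = cOf q l s j := by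
  simp only [cf, cOf, betaO, tauO]
  by_cases h : j ≤ l
  · have e1 : l - (s - j) = 0 := by omega
    have e2 : l + 1 - (s - j) = 0 := by omega
    have e3 : s - j ≠ 0 := by omega
    have e4 : s - j - 1 = (l - j) + (s - l - 1) := by omega
    have e5 : q ^ (l + 2) = q ^ j * q ^ (l - j) * q ^ 2 := by
      rw [← pow_add, ← pow_add]; congr 1; omega
    simp only [e1, e2, qn_zero, qc, e3, if_false, e4, qn_add, e5]
    ring
  · have e1 : l + 1 - j = 0 := by omega
    have e2 : l - j = 0 := by omega
    simp only [e1, e2, qn_zero, rO, qc]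
    by_cases h0 : s - j = 0
    · simp only [h0, if_true, pow_zero, one_mul]
      have e3 : l + 1 - 0 = l + 1 := by omega
      have e4 : l - 0 = l := by omega
      rw [e3, e4, qn_succ]
      ring
    · simp only [h0, if_false]
      ring

/-- The lower coefficient `d` of the odd family is the manifestly positive expression. -/
lemma df_O (q : R) (l s j : ℕ) (hs : 2 * l + 1 ≤ s) (hj : j ≤ s) :
    df q (s - j) (betaO q l s j) (tauO q l s j) = dOf q l s j := by
  simp only [df, dOf, betaO, tauO]
  by_cases h : j ≤ l
  · have e1 : l - (s - j) = 0 := by omega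
    have e2 : l + 1 - (s - j) = 0 := by omega
    have e4 : s - j = (l - j) + (s - l) := by omega
    have e5 : q ^ (l + 1) = q ^ j * q ^ (l - j) * q := by
      rw [← pow_add, ← pow_succ]; congr 1; omega
    simp only [e1, e2, qn_zero]
    rw [e4, qn_add, e5]
    have e6 : (l - j) + (s - l) = s - j := by omega
    ring_nf
  · have e1 : l + 1 - j = 0 := by omega
    have e2 : l - j = 0 := by omega
    simp only [e1, e2, qn_zero]
    ring

/-- The lower coefficient `c` of the even family is the manifestly positive expression. -/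
lemma cf_S (q : R) (l s j : ℕ) (hl : 1 ≤ l) (hs : 2 * l ≤ s) (hj : j ≤ s) :
    cf q (s - j) (betaS q l s j) (tauS q l s j) = cSf q l s j := by
  simp only [cf, cSf, betaS, tauS]
  by_cases h : j < l
  · have e1 : l - (s - j) = 0 := by omega
    have e3 : s - j ≠ 0 := by omega
    have e4 : s - j - 1 = (l - j) + (s - l - 1) := by omega
    have e5 : q ^ (l + 2) = q ^ j * q ^ (l - j) * q ^ 2 := by
      rw [← pow_add, ← pow_add]; congr 1; omega
    simp only [e1, qn_zero, qc, e3, if_false, e4, qn_add, e5]
    ring
  · have e2 : l - j = 0 := by omega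
    simp only [e2, qn_zero, rS, qc]
    by_cases h0 : s - j = 0
    · simp only [h0, if_true, pow_zero, one_mul]
      have e4 : l - 0 = l := by omega
      obtain ⟨m, rfl⟩ : ∃ m, l = m + 1 := ⟨l - 1, by omega⟩
      simp only [Nat.add_sub_cancel, e4, qn_succ]
      ring
    · simp only [h0, if_false]
      ring

/-- The lower coefficient `d` of the even family is the manifestly positive expression. -/
lemma df_S (q : R) (l s j : ℕ) (hs : 2 * l ≤ s) (hj : j ≤ s) :
    df q (s - j) (betaS q l s j) (tauS q l s j) = dSf q l s j := by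
  simp only [df, dSf, betaS, tauS]
  by_cases h : j < l
  · have e1 : l - (s - j) = 0 := by omega
    have e4 : s - j = (l - j) + (s - l) := by omega
    have e5 : q ^ (l + 1) = q ^ j * q ^ (l - j) * q := by
      rw [← pow_add, ← pow_succ]; congr 1; omega
    simp only [e1, qn_zero]
    rw [e4, qn_add, e5]
    ring_nf
  · have e2 : l - j = 0 := by omega
    simp only [e2, qn_zero]
    ring

end Vale.Agent.Lib.P066K
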