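import Vale.Agent.Lib.P066K.Cone
import Vale.Agent.Lib.P066K.Chrom

/-!
From the sum over colourings to the iterated closing steps.
-/

namespace Vale.Agent.Lib.P066K

open Finset

section iter

variable {α R : Type*} [Fintype α] [CommRing R]

/-- The extension of a partial colouring by two more colours. -/
def fh {v : ℕ} (f : Fin v → α) (b c : α) (i : ℕ) : α :=
  if hi : i < v then f ⟨i, hi⟩ else if i = v then b else c

/-- The iterated sum. -/
def Itr (W : ℕ → α → α → α → R) : ℕ → α → α → R
  | 0, _, _ => 1
  | v + 1, b, c => ∑ a, W v a b c * Itr W v a b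

lemma fh_snoc {v : ℕ} (g : Fin v → α) (a b c : α) (i : ℕ) (hi : i ≤ v + 1) :
    fh (Fin.snoc g a : Fin (v + 1) → α) b c i = fh g a b i := by
  unfold fh
  by_cases h1 : i < v
  · have h2 : i < v + 1 := by omega
    rw [dif_pos h2, dif_pos h1]
    have : (⟨i, h2⟩ : Fin (v + 1)) = Fin.castSucc ⟨i, h1⟩ := rfl
    rw [this, Fin.snoc_castSucc]
  · by_cases h2 : i = v
    · subst h2
      have h3 : i < i + 1 := by omega
      rw [dif_pos h3, dif_neg h1, if_pos rfl]
      have : (⟨i, h3⟩ : Fin (i + 1)) = Fin.last i := rfl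
      rw [this, Fin.snoc_last]
    · have h3 : i = v + 1 := by omega
      subst h3
      rw [dif_neg (by omega), if_pos rfl, dif_neg h1, if_neg h2]

lemma Itr_eq (W : ℕ → α → α → α → R) (v : ℕ) (b c : α) :
    Itr W v b c = ∑ f : Fin v → α, ∏ u : Fin v,
      W u (fh f b c u) (fh f b c (u + 1)) (fh f b c (u + 2)) := by
  induction v generalizing b c with
  | zero => simp [Itr]
  | succ v ih =>
    simp only [Itr, ih]
    rw [← (Fin.snocEquiv (fun _ : Fin (v + 1) => α)).sum_comp, Fintype.sum_prod_type]
    refine Finset.sum_congr rfl fun a _ => ?_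
    rw [Finset.mul_sum]
    refine Finset.sum_congr rfl fun g _ => ?_
    have e : (Fin.snocEquiv (fun _ : Fin (v + 1) => α)) (a, g) = Fin.snoc g a := rfl
    rw [e, Fin.prod_univ_castSucc]
    have h1 : ∀ u : Fin v,
        W (Fin.castSucc u : Fin (v + 1)) (fh (Fin.snoc g a : Fin (v + 1) → α) b c (Fin.castSucc u))
          (fh (Fin.snoc g a : Fin (v + 1) → α) b c ((Fin.castSucc u : Fin (v + 1)) + 1))
          (fh (Fin.snoc g a : Fin (v + 1) → α) b c ((Fin.castSucc u : Fin (v + 1)) + 2)) =
        W u (fh g a b u) (fh g a b (u + 1)) (fh g a b (u + 2)) := by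
      intro u
      have hu := u.isLt
      have e0 : ((Fin.castSucc u : Fin (v + 1)) : ℕ) = u := rfl
      rw [e0, fh_snoc g a b c _ (by omega), fh_snoc g a b c _ (by omega),
        fh_snoc g a b c _ (by omega)]
    simp only [h1]
    have h2 : fh (Fin.snoc g a : Fin (v + 1) → α) b c (Fin.last v : Fin (v + 1)) = a := by
      rw [Fin.val_last, fh_snoc g a b c _ (by omega)]
      simp [fh]
    have h3 : fh (Fin.snoc g a : Fin (v + 1) → α) b c ((Fin.last v : Fin (v + 1)) + 1) = b := by
      rw [Fin.val_last, fh_snoc g a b c _ (by omega)]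
      simp [fh]
    have h4 : fh (Fin.snoc g a : Fin (v + 1) → α) b c ((Fin.last v : Fin (v + 1)) + 2) = c := by
      rw [Fin.val_last]
      simp [fh]
    rw [h2, h3, h4, Fin.val_last, mul_comm]

end iter

variable {n : ℕ} (h : Fin n → Fin n)

/-- The number of later neighbours of a vertex. -/
def tt (v : ℕ) : ℕ := if hv : v < n then (h ⟨v, hv⟩ : ℕ) - v else 0

/-- The local weight of closing a vertex. -/
def locW {R : Type*} [CommRing R] {N : ℕ} (q : R) (x : Fin N → R) (t : ℕ) (a b c : Fin N) : R :=
  if t = 0 then x a else if t = 1 then (if a ≠ b then x a * wt q a b else 0) else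
    (if a ≠ b ∧ a ≠ c then x a * wt q a b * wt q a c else 0)

/-- The family of states after closing the first `v` vertices. -/
noncomputable def YY : ℕ → Fam
  | 0 => fun _ _ _ => 1
  | v + 1 => if tt h v = 0 then famZ (YY v) else if tt h v = 1 then famD (YY v) else famA (YY v)

lemma YY_eq_Itr (N v : ℕ) (b c : Fin N) :
    YY h v N b c = Itr (fun u => locW (qq N) (xx N) (tt h u)) v b c := by
  induction v generalizing b c with
  | zero => rfl
  | succ v ih =>
    simp only [YY, Itr]
    by_cases h0 : tt h v = 0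
    · simp only [h0, if_true, famZ, stepZ, locW]
      refine Finset.sum_congr rfl fun a _ => ?_
      rw [ih]
    · by_cases h1 : tt h v = 1
      · simp only [h1, if_true, Nat.one_ne_zero, if_false, famD, stepD, locW]
        refine Finset.sum_congr rfl fun a _ => ?_
        rw [ih]
        split_ifs <;> simp
      · simp only [h0, h1, if_false, famA, stepA, locW]
        refine Finset.sum_congr rfl fun a _ => ?_
        rw [ih]
        split_ifs <;> simp

/-- The factor of an ordered pair of vertices. -/
def edgeF {R : Type*} [CommRing R] {N : ℕ} (q : R) (f : Fin n → Fin N) (u j : Fin n) : R :=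
  if u < j ∧ j ≤ h u then (if f u ≠ f j then wt q (f u) (f j) else 0) else 1

lemma edge_prod {R : Type*} [CommRing R] {N : ℕ} (q : R) (f : Fin n → Fin N) :
    ∏ u : Fin n, ∏ j : Fin n, edgeF h q f u j =
      if ∀ i j : Fin n, i < j → j ≤ h i → f i ≠ f j then q ^ ascCount h f else 0 := by
  split_ifs with hp
  · have e : ∀ u j : Fin n, edgeF h q f u j = if u < j ∧ j ≤ h u ∧ f u < f j then q else 1 := by
      intro u j
      simp only [edgeF, wt]
      by_cases h1 : u < j ∧ j ≤ h u
      · have h2 := hp u j h1.1 h1.2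
        rw [if_pos h1, if_pos h2]
        by_cases h3 : f u < f j
        · rw [if_pos h3, if_pos ⟨h1.1, h1.2, h3⟩]
        · rw [if_neg h3, if_neg (fun h4 => h3 h4.2.2)]
      · rw [if_neg h1, if_neg (fun h4 => h1 ⟨h4.1, h4.2.1⟩)]
    simp only [e]
    rw [← Fintype.prod_prod_type' (f := fun u j => if u < j ∧ j ≤ h u ∧ f u < f j then q else 1)]
    rw [Finset.prod_ite, Finset.prod_const, Finset.prod_const_one, mul_one]
    rfl
  · push_neg at hp
    obtain ⟨i, j, h1, h2, h3⟩ := hp
    apply Finset.prod_eq_zero (mem_univ i)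
    apply Finset.prod_eq_zero (mem_univ j)
    simp only [edgeF]
    rw [if_pos ⟨h1, h2⟩, if_neg (fun h4 => h4 h3)]

lemma tt_val (v : Fin n) : tt h v = (h v : ℕ) - v := by
  simp [tt]

lemma loc_eq {R : Type*} [CommRing R] {N : ℕ} (q : R) (x : Fin N → R) (hi : ∀ i, i ≤ h i)
    (h3 : ∀ i : Fin n, (h i : ℕ) ≤ i + 2) (f : Fin n → Fin N) (b c : Fin N) (u : Fin n) :
    locW q x (tt h u) (fh f b c u) (fh f b c (u + 1)) (fh f b c (u + 2)) =
      x (f u) * ∏ j : Fin n, edgeF h q f u j := by
  have hu := u.isLt
  have e0 : fh f b c (u : ℕ) = f u := by simp [fh]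
  have hle : (u : ℕ) ≤ h u := hi u
  have hub := h3 u
  have hlt := (h u).isLt
  rw [e0, tt_val]
  by_cases h0 : (h u : ℕ) - u = 0
  · have e1 : ∀ j : Fin n, edgeF h q f u j = 1 := by
      intro j
      simp only [edgeF]
      rw [if_neg]
      rintro ⟨h4, h5⟩
      have h4' : (u : ℕ) < j := h4
      have h5' : (j : ℕ) ≤ h u := h5
      omega
    simp only [e1, Finset.prod_const_one, mul_one, locW, h0, if_true]
  · by_cases h1 : (h u : ℕ) - u = 1
    · have hj : (u : ℕ) + 1 < n := by omega
      let j0 : Fin n := ⟨u + 1, hj⟩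
      have e2 : fh f b c ((u : ℕ) + 1) = f j0 := by simp [fh, hj, j0]
      have e3 : ∏ j : Fin n, edgeF h q f u j = edgeF h q f u j0 := by
        apply Finset.prod_eq_single j0
        · intro j _ hne
          simp only [edgeF]
          rw [if_neg]
          rintro ⟨h4, h5⟩
          have h4' : (u : ℕ) < j := h4
          have h5' : (j : ℕ) ≤ h u := h5
          apply hne
          apply Fin.ext
          show (j : ℕ) = u + 1
          omega
        · intro hh; exact absurd (mem_univ _) hh
      have e4 : u < j0 ∧ j0 ≤ h u := by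
        constructor
        · show (u : ℕ) < u + 1; omega
        · show (u : ℕ) + 1 ≤ h u; omega
      rw [e3, e2]
      simp only [edgeF, locW, h1, Nat.one_ne_zero, if_false, if_true, if_pos e4]
      split_ifs
      · rfl
      · simp
    · have hj : (u : ℕ) + 2 < n := by omega
      have hj1 : (u : ℕ) + 1 < n := by omega
      let j1 : Fin n := ⟨u + 1, hj1⟩
      let j2 : Fin n := ⟨u + 2, hj⟩
      have hne12 : j1 ≠ j2 := by
        intro hh
        have := congrArg Fin.val hh
        simp [j1, j2] at this
      have e2 : fh f b c ((u : ℕ) + 1) = f j1 := by simp [fh, hj1, j1]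
      have e2' : fh f b c ((u : ℕ) + 2) = f j2 := by simp [fh, hj, j2]
      have e3 : ∏ j : Fin n, edgeF h q f u j = edgeF h q f u j1 * edgeF h q f u j2 := by
        apply Finset.prod_eq_mul j1 j2 hne12
        · intro j _ hne
          simp only [edgeF]
          rw [if_neg]
          rintro ⟨h4, h5⟩
          have h4' : (u : ℕ) < j := h4
          have h5' : (j : ℕ) ≤ h u := h5
          have h6 : (j : ℕ) = u + 1 ∨ (j : ℕ) = u + 2 := by omega
          rcases h6 with h6 | h6
          · exact hne.1 (Fin.ext h6)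
          · exact hne.2 (Fin.ext h6)
        · intro hh; exact absurd (mem_univ _) hh
        · intro hh; exact absurd (mem_univ _) hh
      have e4 : u < j1 ∧ j1 ≤ h u := by
        constructor
        · show (u : ℕ) < u + 1; omega
        · show (u : ℕ) + 1 ≤ h u; omega
      have e5 : u < j2 ∧ j2 ≤ h u := by
        constructor
        · show (u : ℕ) < u + 2; omega
        · show (u : ℕ) + 2 ≤ h u; omega
      rw [e3, e2, e2']
      simp only [edgeF, locW, h0, h1, if_false, if_pos e4, if_pos e5]
      by_cases h7 : f u ≠ f j1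
      · by_cases h8 : f u ≠ f j2
        · rw [if_pos ⟨h7, h8⟩, if_pos h7, if_pos h8]; ring
        · rw [if_neg (fun h9 => h8 h9.2), if_neg h8]; simp
      · rw [if_neg (fun h9 => h7 h9.1), if_neg h7]; simp

/-- The iterated state is the chromatic quasisymmetric function. -/
lemma YY_eq_chrom (hi : ∀ i, i ≤ h i) (h3 : ∀ i : Fin n, (h i : ℕ) ≤ i + 2) (N : ℕ)
    (b c : Fin N) : YY h n N b c = chromQ h N := by
  rw [YY_eq_Itr, Itr_eq, chromQ]
  refine Finset.sum_congr rfl fun f _ => ?_
  simp only [loc_eq h (qq N) (xx N) hi h3 f b c, Finset.prod_mul_distrib, edge_prod]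
  split_ifs with hp
  · simp only [qq, xx, map_pow]
    ring
  · simp

end Vale.Agent.Lib.P066K
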