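import Vale.Agent.Lib.P066K.Family

/-!
The recursions for the basic states under the closing steps.
-/

namespace Vale.Agent.Lib.P066K

open Finset

variable {R : Type*} [CommRing R] {N : ℕ}

/-- The odd family as a state. -/
noncomputable def evalO (q : R) (x : Fin N → R) (l s : ℕ) (a b : Fin N) : R :=
  chamberF q x s (betaO q l s) (tauO q l s) a b

/-- The even family as a state. -/
noncomputable def evalS (q : R) (x : Fin N → R) (l s : ℕ) (a b : Fin N) : R :=
  chamberF q x s (betaS q l s) (tauS q l s) a b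

/-- The symmetric family `M`. -/
noncomputable def evalM (q : R) (x : Fin N → R) (s : ℕ) (a b : Fin N) : R :=
  el (bw q (bw q x b) a) s

lemma evalM_zero (q : R) (x : Fin N → R) (a b : Fin N) : evalM q x 0 a b = 1 := el_zero _

lemma evalO_zero (q : R) (x : Fin N → R) (s : ℕ) (a b : Fin N) :
    evalO q x 0 s a b = B q x s a := by
  simp only [evalO, chamberF]
  rw [Finset.sum_range_succ']
  have h0 : betaO q 0 s 0 = 1 := by simp [betaO]
  have h0' : tauO q 0 s 0 = 0 := by simp [tauO]
  have h1 : ∀ j, betaO q 0 s (j + 1) = 0 := by intro j; simp [betaO]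
  have h2 : ∀ j, tauO q 0 s (j + 1) = 0 := by intro j; simp [tauO]
  simp [h0, h0', h1, h2]

lemma bw_comm (q : R) (x : Fin N → R) (b c : Fin N) :
    bw q (bw q x b) c = bw q (bw q x c) b := by
  funext d
  simp only [bw]
  rcases lt_trichotomy d b with h1 | h1 | h1
  · rcases lt_trichotomy d c with h2 | h2 | h2
    · simp [h1, h2]
    · subst h2; simp [h1]
    · simp [h1, h2, not_lt_of_gt h2]
  · subst h1
    rcases lt_trichotomy d c with h2 | h2 | h2
    · simp [h2]
    · subst h2; simp
    · simp [h2, not_lt_of_gt h2]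
  · rcases lt_trichotomy d c with h2 | h2 | h2
    · simp [h1, h2, not_lt_of_gt h1]
    · subst h2; simp [h1, not_lt_of_gt h1]
    · simp [h1, h2, not_lt_of_gt h1, not_lt_of_gt h2]

lemma stepA_M [IsDomain R] (q : R) (hq : q - 1 ≠ 0) (x : Fin N → R) (s : ℕ) (b c : Fin N) :
    stepA q x (evalM q x s) b c =
      evalM q x (s + 1) b c + q * qn q s * B q x (s + 1) b := by
  have h := step_B q hq (bw q x b) s c
  have e : stepA q x (evalM q x s) b c =
      ∑ a : Fin N, if a ≠ c then bw q x b a * wt q a c * B q (bw q x b) s a else 0 := by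
    simp only [stepA]
    refine Finset.sum_congr rfl fun a _ => ?_
    by_cases h1 : a = b
    · subst h1
      simp [bw]
    · by_cases h2 : a = c
      · subst h2; simp
      · have h3 : bw q x b a = x a * wt q a b := by
          simp only [bw, wt]
          rcases lt_or_gt_of_ne h1 with h4 | h4
          · simp [h4]; ring
          · simp [h4, not_lt_of_gt h4]
        rw [if_pos ⟨h1, h2⟩, if_pos h2, h3]
        simp only [evalM, B]
  rw [e, h]
  simp only [evalM, B]
  rw [bw_comm q x b c]
  ring

lemma stepD_M [IsDomain R] (q : R) (hq : q - 1 ≠ 0) (x : Fin N → R) (s : ℕ) (b c : Fin N) :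
    stepD q x (evalM q x s) b c = qn q (s + 1) * B q x (s + 1) b := by
  have h := close_B q hq (bw q x b) s
  have e : stepD q x (evalM q x s) b c =
      ∑ a : Fin N, bw q x b a * B q (bw q x b) s a := by
    simp only [stepD]
    refine Finset.sum_congr rfl fun a _ => ?_
    by_cases h1 : a = b
    · subst h1
      simp [bw]
    · have h3 : bw q x b a = x a * wt q a b := by
        simp only [bw, wt]
        rcases lt_or_gt_of_ne h1 with h4 | h4
        · simp [h4]; ring
        · simp [h4, not_lt_of_gt h4]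
      rw [if_pos h1, h3]
      simp only [evalM, B]
  rw [e, h]
  simp only [B]

/-- Reindexing a chamber state of degree `s + 1`. -/
lemma chamberF_reindex (q : R) (x : Fin N → R) (s : ℕ) (β τ : ℕ → R) (b c : Fin N) :
    chamberF q x (s + 1) β τ b c =
      (if b < c then β 0 + (q - 1) * τ 0 else β 0) * B q x (s + 1) b +
      ∑ j ∈ range (s + 1),
        (if b < c then β (s - j + 1) + (q - 1) * τ (s - j + 1) else β (s - j + 1)) *
          (B q x j b * B q x (s - j + 1) c) := by
  simp only [chamberF]
  rw [Finset.sum_range_succ', add_comm]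
  congr 1
  · simp
  · rw [← Finset.sum_range_reflect]
    refine Finset.sum_congr rfl fun j hj => ?_
    have hj' : j ≤ s := Nat.lt_succ_iff.mp (Finset.mem_range.mp hj)
    have e1 : s + 1 - 1 - j + 1 = s - j + 1 := by omega
    have e2 : s + 1 - (s - j + 1) = j := by omega
    rw [e1, e2]
    ring

lemma stepA_O [IsDomain R] [CharZero R] (q : R) (hq : q - 1 ≠ 0) (x : Fin N → R) (l s : ℕ)
    (hs : 2 * l + 1 ≤ s) (b c : Fin N) (hbc : b ≠ c) :
    stepA q x (evalO q x l s) b c =
      evalS q x (l + 1) (s + 1) b c + q * qn q l * qn q (l + 1) * B q x (s + 1) b +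
      ∑ j ∈ range (s + 1), el x (s - j + 1) * cOf q l s j * B q x j b := by
  have h := stepA_chamber q hq x s (betaO q l s) (tauO q l s) (isChamberO q l s) b c hbc
  have h1 : ∀ j ∈ range (s + 1), el x (s - j + 1) * cf q (s - j) (betaO q l s j) (tauO q l s j)
        * B q x j b = el x (s - j + 1) * cOf q l s j * B q x j b := by
    intro j hj
    rw [cf_O q l s j hs (Nat.lt_succ_iff.mp (Finset.mem_range.mp hj))]
  have h2 : ∀ j ∈ range (s + 1), (if b < c then betaO q l s j
        else q * (betaO q l s j + (q - 1) * tauO q l s j)) * (B q x j b * B q x (s - j + 1) c) =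
      (if b < c then betaS q (l + 1) (s + 1) (s - j + 1) +
          (q - 1) * tauS q (l + 1) (s + 1) (s - j + 1)
        else betaS q (l + 1) (s + 1) (s - j + 1)) * (B q x j b * B q x (s - j + 1) c) := by
    intro j hj
    have hj' : j ≤ s := Nat.lt_succ_iff.mp (Finset.mem_range.mp hj)
    congr 1
    rw [alphaS_eq, alphaO_eq]
    have e1 : l + 1 - (s - j + 1) = l - (s - j) := by omega
    have e2 : s + 1 - (s - j + 1) = j := by omega
    split_ifs
    · simp only [betaO, alphaS, e1, e2]
      ring
    · simp only [betaS, alphaO, e1, e2]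
      ring
  have h3 : betaO q l s 0 + q * tauO q l s 0 = qn q (l + 1) ^ 2 := by
    rw [gamO_eq]
    have e : l - s = 0 := by omega
    simp [e]
  have h4 : betaS q (l + 1) (s + 1) 0 = qn q (l + 1) := by
    have e : l + 1 - (s + 1) = 0 := by omega
    simp [betaS, e]
  have h5 : betaS q (l + 1) (s + 1) 0 + (q - 1) * tauS q (l + 1) (s + 1) 0 =
      q ^ (l + 1) * qn q (l + 1) := by
    rw [alphaS_eq]
    have e : l + 1 - (s + 1) = 0 := by omega
    simp [alphaS, e]
  have h6 := qn_succ' q l
  have h7 := qn_succ q l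
  have e1 : stepA q x (evalO q x l s) b c =
      stepA q x (chamberF q x s (betaO q l s) (tauO q l s)) b c := rfl
  have e2 : evalS q x (l + 1) (s + 1) b c =
      chamberF q x (s + 1) (betaS q (l + 1) (s + 1)) (tauS q (l + 1) (s + 1)) b c := rfl
  rw [e1, e2, h, chamberF_reindex, Finset.sum_congr rfl h1, Finset.sum_congr rfl h2, h3, h5, h4]
  simp only [wt]
  split_ifs
  · linear_combination (q * qn q (l + 1) * B q x (s + 1) b) * h7
  · linear_combination (qn q (l + 1) * B q x (s + 1) b) * h6

lemma stepA_S [IsDomain R] [CharZero R] (q : R) (hq : q - 1 ≠ 0) (x : Fin N → R) (l s : ℕ)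
    (hl : 1 ≤ l) (hs : 2 * l ≤ s) (b c : Fin N) (hbc : b ≠ c) :
    stepA q x (evalS q x l s) b c =
      evalO q x l (s + 1) b c + q * qn q (l - 1) * qn q (l + 1) * B q x (s + 1) b +
      ∑ j ∈ range (s + 1), el x (s - j + 1) * cSf q l s j * B q x j b := by
  have h := stepA_chamber q hq x s (betaS q l s) (tauS q l s) (isChamberS q l s) b c hbc
  have h1 : ∀ j ∈ range (s + 1), el x (s - j + 1) * cf q (s - j) (betaS q l s j) (tauS q l s j)
        * B q x j b = el x (s - j + 1) * cSf q l s j * B q x j b := by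
    intro j hj
    rw [cf_S q l s j hl hs (Nat.lt_succ_iff.mp (Finset.mem_range.mp hj))]
  have h2 : ∀ j ∈ range (s + 1), (if b < c then betaS q l s j
        else q * (betaS q l s j + (q - 1) * tauS q l s j)) * (B q x j b * B q x (s - j + 1) c) =
      (if b < c then betaO q l (s + 1) (s - j + 1) +
          (q - 1) * tauO q l (s + 1) (s - j + 1)
        else betaO q l (s + 1) (s - j + 1)) * (B q x j b * B q x (s - j + 1) c) := by
    intro j hj
    have hj' : j ≤ s := Nat.lt_succ_iff.mp (Finset.mem_range.mp hj)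
    congr 1
    rw [alphaO_eq, alphaS_eq]
    have e1 : l + 1 - (s - j + 1) = l - (s - j) := by omega
    have e2 : s + 1 - (s - j + 1) = j := by omega
    split_ifs
    · simp only [betaS, alphaO, e1, e2]
      ring
    · simp only [betaO, alphaS, e1, e2]
      ring
  have h3 : betaS q l s 0 + q * tauS q l s 0 = qn q l * qn q (l + 1) := by
    rw [gamS_eq]
    have e : l - s = 0 := by omega
    simp [e]
  have h4 : betaO q l (s + 1) 0 = qn q (l + 1) := by
    have e : l - (s + 1) = 0 := by omega
    simp [betaO, e]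
  have h5 : betaO q l (s + 1) 0 + (q - 1) * tauO q l (s + 1) 0 =
      q ^ l * qn q (l + 1) := by
    rw [alphaO_eq]
    have e : l - (s + 1) = 0 := by omega
    simp [alphaO, e]
  obtain ⟨m, rfl⟩ : ∃ m, l = m + 1 := ⟨l - 1, by omega⟩
  have h6 := qn_succ' q m
  have h7 := qn_succ q m
  have e1 : stepA q x (evalS q x (m + 1) s) b c =
      stepA q x (chamberF q x s (betaS q (m + 1) s) (tauS q (m + 1) s)) b c := rfl
  have e2 : evalO q x (m + 1) (s + 1) b c =
      chamberF q x (s + 1) (betaO q (m + 1) (s + 1)) (tauO q (m + 1) (s + 1)) b c := rfl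
  rw [e1, e2, h, chamberF_reindex, Finset.sum_congr rfl h1, Finset.sum_congr rfl h2, h3, h5, h4]
  simp only [wt, Nat.add_sub_cancel]
  split_ifs
  · linear_combination (q * qn q (m + 1 + 1) * B q x (s + 1) b) * h7
  · linear_combination (qn q (m + 1 + 1) * B q x (s + 1) b) * h6

lemma stepD_O [IsDomain R] [CharZero R] (q : R) (hq : q - 1 ≠ 0) (x : Fin N → R) (l s : ℕ)
    (hs : 2 * l + 1 ≤ s) (b c : Fin N) :
    stepD q x (evalO q x l s) b c =
      qn q (l + 1) ^ 2 * B q x (s + 1) b +
      ∑ j ∈ range (s + 1), el x (s - j + 1) * dOf q l s j * B q x j b := by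
  have h := stepD_chamber q hq x s (betaO q l s) (tauO q l s) (isChamberO q l s) b c
  have h1 : ∀ j ∈ range (s + 1), el x (s - j + 1) * df q (s - j) (betaO q l s j) (tauO q l s j)
        * B q x j b = el x (s - j + 1) * dOf q l s j * B q x j b := by
    intro j hj
    rw [df_O q l s j hs (Nat.lt_succ_iff.mp (Finset.mem_range.mp hj))]
  have h3 : betaO q l s 0 + q * tauO q l s 0 = qn q (l + 1) ^ 2 := by
    rw [gamO_eq]
    have e : l - s = 0 := by omega
    simp [e]
  have e1 : stepD q x (evalO q x l s) b c =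
      stepD q x (chamberF q x s (betaO q l s) (tauO q l s)) b c := rfl
  rw [e1, h, Finset.sum_congr rfl h1, h3]

lemma stepD_S [IsDomain R] [CharZero R] (q : R) (hq : q - 1 ≠ 0) (x : Fin N → R) (l s : ℕ)
    (hs : 2 * l ≤ s) (b c : Fin N) :
    stepD q x (evalS q x l s) b c =
      qn q l * qn q (l + 1) * B q x (s + 1) b +
      ∑ j ∈ range (s + 1), el x (s - j + 1) * dSf q l s j * B q x j b := by
  have h := stepD_chamber q hq x s (betaS q l s) (tauS q l s) (isChamberS q l s) b c
  have h1 : ∀ j ∈ range (s + 1), el x (s - j + 1) * df q (s - j) (betaS q l s j) (tauS q l s j)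
        * B q x j b = el x (s - j + 1) * dSf q l s j * B q x j b := by
    intro j hj
    rw [df_S q l s j hs (Nat.lt_succ_iff.mp (Finset.mem_range.mp hj))]
  have h3 : betaS q l s 0 + q * tauS q l s 0 = qn q l * qn q (l + 1) := by
    rw [gamS_eq]
    have e : l - s = 0 := by omega
    simp [e]
  have e1 : stepD q x (evalS q x l s) b c =
      stepD q x (chamberF q x s (betaS q l s) (tauS q l s)) b c := rfl
  rw [e1, h, Finset.sum_congr rfl h1, h3]

/-- Closing the last open vertex of a component. -/
lemma stepZ_C [IsDomain R] (q : R) (hq : q - 1 ≠ 0) (x : Fin N → R) (j : ℕ) (b c : Fin N) :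
    stepZ x (fun a _ => B q x j a) b c = qn q (j + 1) * el x (j + 1) := by
  simp only [stepZ]
  exact close_B q hq x j

/-- The one open vertex states: `stepD` of `B_j(a)`. -/
lemma stepD_C [IsDomain R] (q : R) (hq : q - 1 ≠ 0) (x : Fin N → R) (j : ℕ) (b c : Fin N) :
    stepD q x (fun a _ => B q x j a) b c = q * qn q j * el x (j + 1) + B q x (j + 1) b := by
  simp only [stepD]
  exact step_B q hq x j b

end Vale.Agent.Lib.P066K
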