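import Mathlib

/-!
Generating polynomials for alphabets indexed by `Fin N`, the functions `B_k(y)` and the
telescoping identities behind the chamber calculus.
-/

namespace Vale.Agent.Lib.P066K

open Finset

section semiring

variable {R : Type*} [CommSemiring R]

/-- The `q`-number `[n] = 1 + q + ... + q^(n-1)`. -/
def qn (q : R) (n : ℕ) : R := ∑ i ∈ range n, q ^ i

@[simp] lemma qn_zero (q : R) : qn q 0 = 0 := by simp [qn]
@[simp] lemma qn_one (q : R) : qn q 1 = 1 := by simp [qn]

lemma qn_succ (q : R) (n : ℕ) : qn q (n + 1) = qn q n + q ^ n := by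
  simp [qn, sum_range_succ]

lemma qn_succ' (q : R) (n : ℕ) : qn q (n + 1) = 1 + q * qn q n := by
  simp only [qn, sum_range_succ', mul_sum, pow_succ']
  rw [add_comm]; simp

lemma map_qn {S : Type*} [CommSemiring S] (f : R →+* S) (q : R) (n : ℕ) :
    f (qn q n) = qn (f q) n := by
  simp [qn, map_sum, map_pow]

end semiring

variable {R : Type*} [CommRing R] {N : ℕ}

lemma mul_qn (q : R) (n : ℕ) : (q - 1) * qn q n = q ^ n - 1 := by
  simpa [qn] using mul_geom_sum q n

/-- The generating polynomial `∏ (1 + w_c t)`. -/
noncomputable def gf (w : Fin N → R) : Polynomial R :=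
  ∏ c, (1 + Polynomial.C (w c) * Polynomial.X)

/-- The elementary symmetric function of the alphabet `w`. -/
noncomputable def el (w : Fin N → R) (k : ℕ) : R := (gf w).coeff k

lemma el_zero (w : Fin N → R) : el w 0 = 1 := by
  simp [el, gf, Polynomial.coeff_zero_eq_eval_zero, Polynomial.eval_prod]

lemma coeff_mul_factor (P : Polynomial R) (u : R) (k : ℕ) :
    (P * (1 + Polynomial.C u * Polynomial.X)).coeff (k + 1) = P.coeff (k + 1) + u * P.coeff k := by
  rw [mul_add, mul_one, Polynomial.coeff_add]
  congr 1
  rw [mul_left_comm, Polynomial.coeff_C_mul, Polynomial.coeff_mul_X]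

lemma el_smul (q : R) (x : Fin N → R) (k : ℕ) : el (fun c => q * x c) k = q ^ k * el x k := by
  have h : gf (fun c => q * x c) = (gf x).comp (Polynomial.C q * Polynomial.X) := by
    simp only [gf, Polynomial.prod_comp]
    refine Finset.prod_congr rfl fun c _ => ?_
    simp only [Polynomial.add_comp, Polynomial.mul_comp, Polynomial.one_comp, Polynomial.C_comp,
      Polynomial.X_comp, map_mul]
    ring
  simp only [el, h, Polynomial.comp_C_mul_X_coeff]
  ring

/-- The alphabet with the letter `y` removed, letters below `y` scaled by `q`. -/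
def bw (q : R) (x : Fin N → R) (y : Fin N) : Fin N → R :=
  fun c => if c < y then q * x c else if y < c then x c else 0

/-- The interpolating alphabet: letters with value below `i` scaled by `q`. -/
def hw (q : R) (x : Fin N → R) (i : ℕ) : Fin N → R :=
  fun c => if c.val < i then q * x c else x c

/-- The function `B_k(y)`. -/
noncomputable def B (q : R) (x : Fin N → R) (k : ℕ) (y : Fin N) : R := el (bw q x y) k

/-- The interpolating coefficient `L_k(i)`. -/
noncomputable def LL (q : R) (x : Fin N → R) (k : ℕ) (i : ℕ) : R := el (hw q x i) (k + 1)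

@[simp] lemma B_zero (q : R) (x : Fin N → R) (y : Fin N) : B q x 0 y = 1 := el_zero _

lemma gf_split (w : Fin N → R) (a : Fin N) :
    gf w = (∏ c ∈ univ.erase a, (1 + Polynomial.C (w c) * Polynomial.X)) *
      (1 + Polynomial.C (w a) * Polynomial.X) := by
  rw [gf, Finset.prod_erase_mul _ _ (mem_univ a)]

lemma gf_bw_eq (q : R) (x : Fin N → R) (a : Fin N) (w : Fin N → R)
    (hw' : ∀ c, c ≠ a → w c = bw q x a c) :
    gf w = gf (bw q x a) * (1 + Polynomial.C (w a) * Polynomial.X) := by
  rw [gf_split w a, gf_split (bw q x a) a]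
  have h0 : bw q x a a = 0 := by simp [bw]
  rw [h0]
  simp only [map_zero, zero_mul, add_zero, mul_one]
  congr 1
  refine Finset.prod_congr rfl fun c hc => ?_
  rw [hw' c (Finset.ne_of_mem_erase hc)]

lemma LL_at (q : R) (x : Fin N → R) (k : ℕ) (a : Fin N) :
    LL q x k a.val = B q x (k + 1) a + x a * B q x k a := by
  have h := gf_bw_eq q x a (hw q x a.val) (by
    intro c hc
    simp only [hw, bw]
    by_cases h1 : c < a
    · rw [if_pos (Fin.lt_def.mp h1), if_pos h1]
    · have h2 : a < c := lt_of_le_of_ne (not_lt.mp h1) (Ne.symm hc)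
      rw [if_neg (fun h' => h1 (Fin.lt_def.mpr h')), if_neg h1, if_pos h2])
  have h3 : hw q x a.val a = x a := by
    simp only [hw]; rw [if_neg (lt_irrefl _)]
  rw [h3] at h
  simp only [LL, el, h, coeff_mul_factor, B]

lemma LL_at_succ (q : R) (x : Fin N → R) (k : ℕ) (a : Fin N) :
    LL q x k (a.val + 1) = B q x (k + 1) a + q * x a * B q x k a := by
  have h := gf_bw_eq q x a (hw q x (a.val + 1)) (by
    intro c hc
    simp only [hw, bw]
    by_cases h1 : c < a
    · rw [if_pos (by have := Fin.lt_def.mp h1; omega), if_pos h1]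
    · have h2 : a < c := lt_of_le_of_ne (not_lt.mp h1) (Ne.symm hc)
      have h2' := Fin.lt_def.mp h2
      rw [if_neg (by omega), if_neg h1, if_pos h2])
  have h3 : hw q x (a.val + 1) a = q * x a := by
    simp only [hw]; rw [if_pos (Nat.lt_succ_self _)]
  rw [h3] at h
  simp only [LL, el, h, coeff_mul_factor, B]

lemma LL_zero (q : R) (x : Fin N → R) (k : ℕ) : LL q x k 0 = el x (k + 1) := by
  have : hw q x 0 = x := by
    funext c; simp [hw]
  simp only [LL, this]

lemma LL_top (q : R) (x : Fin N → R) (k : ℕ) : LL q x k N = q ^ (k + 1) * el x (k + 1) := by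
  have : hw q x N = fun c => q * x c := by
    funext c; simp [hw]
  simp only [LL, this, el_smul]

/-- The partial sum of `x_a B_k(a)` over the letters with value below `i`. -/
noncomputable def SS (q : R) (x : Fin N → R) (k : ℕ) (i : ℕ) : R :=
  ∑ a : Fin N, if a.val < i then x a * B q x k a else 0

lemma mul_SS (q : R) (x : Fin N → R) (k i : ℕ) (hi : i ≤ N) :
    (q - 1) * SS q x k i = LL q x k i - el x (k + 1) := by
  induction i with
  | zero => simp [SS, LL_zero]
  | succ i ih =>
    have hi' : i < N := hi
    have ih' := ih (le_of_lt hi')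
    have hs : SS q x k (i + 1) = SS q x k i + x ⟨i, hi'⟩ * B q x k ⟨i, hi'⟩ := by
      simp only [SS]
      have : ∀ a : Fin N, (if a.val < i + 1 then x a * B q x k a else 0) =
          (if a.val < i then x a * B q x k a else 0) +
            (if a = ⟨i, hi'⟩ then x a * B q x k a else 0) := by
        intro a
        by_cases h1 : a.val < i
        · have h2 : a ≠ ⟨i, hi'⟩ := by
            intro h; rw [h] at h1; simp at h1
          rw [if_pos (by omega), if_pos h1, if_neg h2, add_zero]
        · by_cases h2 : a = ⟨i, hi'⟩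
          · subst h2; simp
          · have h3 : a.val ≠ i := fun h => h2 (Fin.ext h)
            rw [if_neg (by omega), if_neg h1, if_neg h2, add_zero]
      simp only [this, Finset.sum_add_distrib]
      simp
    have h1 := LL_at q x k (⟨i, hi'⟩ : Fin N)
    have h2 := LL_at_succ q x k (⟨i, hi'⟩ : Fin N)
    simp only at h1 h2
    rw [hs, mul_add, ih', h2, h1]
    ring

/-- The closing identity `sum_a x_a B_k(a) = [k+1] e_{k+1}`. -/
lemma close_B [IsDomain R] (q : R) (hq : q - 1 ≠ 0) (x : Fin N → R) (k : ℕ) :
    ∑ a : Fin N, x a * B q x k a = qn q (k + 1) * el x (k + 1) := by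
  apply mul_left_cancel₀ hq
  have h := mul_SS q x k N le_rfl
  have h2 : SS q x k N = ∑ a : Fin N, x a * B q x k a := by
    simp [SS]
  rw [h2, LL_top] at h
  rw [h, ← mul_assoc, mul_qn]
  ring

/-- The weight `q^[a<b]`. -/
def wt (q : R) (a b : Fin N) : R := if a < b then q else 1

/-- Sum over the letters below `b`. -/
lemma mul_SS' (q : R) (x : Fin N → R) (k : ℕ) (b : Fin N) :
    (q - 1) * SS q x k b.val = B q x (k + 1) b + x b * B q x k b - el x (k + 1) := by
  rw [mul_SS q x k b.val (le_of_lt b.isLt), LL_at]

lemma SS_top_mul (q : R) (x : Fin N → R) (k : ℕ) :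
    (q - 1) * SS q x k N = (q ^ (k + 1) - 1) * el x (k + 1) := by
  rw [mul_SS q x k N le_rfl, LL_top]; ring

/-- Sum of `g a` over `a < b` as a sum with an indicator. -/
def SumLt (g : Fin N → R) (b : Fin N) : R := ∑ a : Fin N, if a < b then g a else 0

lemma SumLt_eq_SS (q : R) (x : Fin N → R) (k : ℕ) (b : Fin N) :
    SumLt (fun a => x a * B q x k a) b = SS q x k b.val := by
  simp only [SumLt, SS, Fin.lt_def]

lemma SS_top_eq (q : R) (x : Fin N → R) (k : ℕ) :
    SS q x k N = ∑ a : Fin N, x a * B q x k a := by
  simp [SS]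

/-- Splitting a weighted sum at one letter `b`. -/
lemma sum_split_one (g : Fin N → R) (b : Fin N) (u v : R) :
    (∑ a : Fin N, if a ≠ b then (if a < b then u else v) * g a else 0) =
      u * SumLt g b + v * ((∑ a, g a) - SumLt g b - g b) := by
  have key : ∀ a : Fin N, (if a ≠ b then (if a < b then u else v) * g a else 0) =
      u * (if a < b then g a else 0) + v * (g a - (if a < b then g a else 0)
        - (if a = b then g a else 0)) := by
    intro a
    rcases lt_trichotomy a b with h | h | h
    · simp [h, ne_of_lt h]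
    · subst h; simp
    · simp [not_lt_of_gt h, ne_of_gt h]
  simp only [key, Finset.sum_add_distrib, Finset.sum_sub_distrib, ← Finset.mul_sum, SumLt]
  simp

/-- Splitting a weighted sum at two letters `b < c`. -/
lemma sum_split_two (g : Fin N → R) (b c : Fin N) (hbc : b < c) (u v w : R) :
    (∑ a : Fin N, if a ≠ b ∧ a ≠ c then (if a < b then u else if a < c then v else w) * g a
      else 0) =
      u * SumLt g b + v * (SumLt g c - SumLt g b - g b) + w * ((∑ a, g a) - SumLt g c - g c) := by
  have key : ∀ a : Fin N, (if a ≠ b ∧ a ≠ c then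
        (if a < b then u else if a < c then v else w) * g a else 0) =
      u * (if a < b then g a else 0) + v * ((if a < c then g a else 0)
        - (if a < b then g a else 0) - (if a = b then g a else 0)) +
      w * (g a - (if a < c then g a else 0) - (if a = c then g a else 0)) := by
    intro a
    rcases lt_trichotomy a b with h | h | h
    · have h1 : a < c := lt_trans h hbc
      simp [h, h1, ne_of_lt h, ne_of_lt h1]
    · subst h; simp [hbc, ne_of_lt hbc]
    · rcases lt_trichotomy a c with h1 | h1 | h1
      · simp [h1, not_lt_of_gt h, ne_of_gt h, ne_of_lt h1]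
      · subst h1; simp [not_lt_of_gt h, ne_of_gt h]
      · simp [not_lt_of_gt h1, not_lt_of_gt h, ne_of_gt h, ne_of_gt h1]
  simp only [key, Finset.sum_add_distrib, Finset.sum_sub_distrib, ← Finset.mul_sum, SumLt]
  simp

/-- The one step recursion `sum_(a != b) x_a q^[a<b] B_k(a) = q [k] e_(k+1) + B_(k+1)(b)`. -/
lemma step_B [IsDomain R] (q : R) (hq : q - 1 ≠ 0) (x : Fin N → R) (k : ℕ) (b : Fin N) :
    (∑ a : Fin N, if a ≠ b then x a * wt q a b * B q x k a else 0) =
      q * qn q k * el x (k + 1) + B q x (k + 1) b := by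
  apply mul_left_cancel₀ hq
  have h := sum_split_one (fun a => x a * B q x k a) b q 1
  have e : (∑ a : Fin N, if a ≠ b then x a * wt q a b * B q x k a else 0) =
      ∑ a : Fin N, if a ≠ b then (if a < b then q else 1) * (x a * B q x k a) else 0 := by
    refine Finset.sum_congr rfl fun a _ => ?_
    simp only [wt]
    split_ifs <;> ring
  rw [e, h, SumLt_eq_SS, ← SS_top_eq]
  have h1 := mul_SS' q x k b
  have h2 := SS_top_mul q x k
  have h3 := mul_qn q k
  linear_combination (q - 1) * h1 + h2 + q * el x (k + 1) * (-h3)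

end Vale.Agent.Lib.P066K
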